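import Crest.Agent.R177.RegRep.Ops

/-!
# The left regular representation of matrices over `ℚ[G]`, the commutant of the right translations
and the trace on it
-/

set_option autoImplicit false

namespace Crest.Agent.R177.RegRepAux

variable {G : Type} [Group G] {n : ℕ} {H : Type} [NormedAddCommGroup H] [InnerProductSpace ℂ H]
  [CompleteSpace H] (b : HilbertBasis (Fin n × G) ℂ H)

/-- matrix unit `(i, j)` times the group element `k` -/
noncomputable def unitOp (i j : Fin n) (k : G) : H →L[ℂ] H :=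
  permOp b (Equiv.prodCongr (Equiv.swap j i) (Equiv.mulLeft k)) * coordProj b {x | x.1 = j}

theorem unitOp_apply (i j j' : Fin n) (k g : G) :
    unitOp b i j k (b (j', g)) = if j' = j then b (i, k * g) else 0 := by
  unfold unitOp
  rw [mul_apply_eq_comp]
  split_ifs with h
  · subst h
    rw [coordProj_mem b (by simp), permOp_apply]
    simp
  · rw [coordProj_notMem b (by simpa using h), map_zero]

/-- the operator of a matrix over `ℚ[G]` -/
noncomputable def lamOp (A : Matrix (Fin n) (Fin n) (MonoidAlgebra ℚ G)) : H →L[ℂ] H :=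
  ∑ i, ∑ j, ∑ k ∈ (A i j).coeff.support, (((A i j).coeff k : ℚ) : ℂ) • unitOp b i j k

theorem lamOp_apply (A : Matrix (Fin n) (Fin n) (MonoidAlgebra ℚ G)) (j : Fin n) (g : G) :
    lamOp b A (b (j, g)) =
      ∑ i, ∑ k ∈ (A i j).coeff.support, (((A i j).coeff k : ℚ) : ℂ) • b (i, k * g) := by
  unfold lamOp
  simp only [sum_apply, smul_apply, unitOp_apply]
  refine Finset.sum_congr rfl fun i _ => ?_
  rw [Finset.sum_eq_single j]
  · simp
  · intro j' _ hj'
    simp [hj'.symm]
  · simp

theorem inner_lamOp (A : Matrix (Fin n) (Fin n) (MonoidAlgebra ℚ G)) (i j : Fin n) (g h : G) :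
    inner ℂ (b (i, h)) (lamOp b A (b (j, g))) = (((A i j).coeff (h * g⁻¹) : ℚ) : ℂ) := by
  classical
  rw [lamOp_apply]
  simp only [inner_sum, inner_smul_right, orthonormal_iff_ite.mp b.orthonormal, Prod.mk.injEq]
  rw [Finset.sum_eq_single i]
  · rw [Finset.sum_eq_single (h * g⁻¹)]
    · simp
    · intro k _ hk
      have : h ≠ k * g := fun e => hk (by rw [e]; simp)
      simp [this]
    · intro hk
      rw [Finsupp.notMem_support_iff.mp hk]
      simp
  · intro i' _ hi'
    simp [hi'.symm]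
  · simp

theorem lamOp_one : lamOp b 1 = 1 := by
  classical
  refine op_ext_inner b ?_
  rintro ⟨i, h⟩ ⟨j, g⟩
  rw [inner_lamOp, one_apply_eq_self, orthonormal_iff_ite.mp b.orthonormal]
  by_cases hij : i = j
  · subst hij
    rw [Matrix.one_apply_eq, MonoidAlgebra.one_def, MonoidAlgebra.coeff_single,
      Finsupp.single_apply]
    by_cases hg : h = g
    · simp [hg]
    · have : (1 : G) ≠ h * g⁻¹ := fun e => hg (by rw [← mul_inv_eq_one]; exact e.symm)
      simp [hg, this]
  · simp [Matrix.one_apply_ne hij, hij]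

theorem lamOp_mul (A B : Matrix (Fin n) (Fin n) (MonoidAlgebra ℚ G)) :
    lamOp b (A * B) = lamOp b A * lamOp b B := by
  refine op_ext_inner b ?_
  rintro ⟨i, h⟩ ⟨j, g⟩
  rw [inner_lamOp, mul_apply_eq_comp, lamOp_apply b B]
  simp only [map_sum, map_smul, inner_sum, inner_smul_right, inner_lamOp, Matrix.mul_apply]
  rw [MonoidAlgebra.coeff_sum, Finsupp.finsetSum_apply, Rat.cast_sum]
  refine Finset.sum_congr rfl fun l _ => ?_
  rw [MonoidAlgebra.coeff_mul_apply_right, Finsupp.sum, Rat.cast_sum]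
  refine Finset.sum_congr rfl fun k _ => ?_
  rw [Rat.cast_mul, mul_comm, mul_inv_rev, mul_assoc]

theorem lamOp_add (A B : Matrix (Fin n) (Fin n) (MonoidAlgebra ℚ G)) :
    lamOp b (A + B) = lamOp b A + lamOp b B := by
  refine op_ext_inner b ?_
  rintro ⟨i, h⟩ ⟨j, g⟩
  rw [inner_lamOp, add_apply, inner_add_right, inner_lamOp, inner_lamOp]
  simp

theorem lamOp_smul (r : ℚ) (A : Matrix (Fin n) (Fin n) (MonoidAlgebra ℚ G)) :
    lamOp b (r • A) = (r : ℂ) • lamOp b A := by
  refine op_ext_inner b ?_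
  rintro ⟨i, h⟩ ⟨j, g⟩
  rw [inner_lamOp, smul_apply, inner_smul_right, inner_lamOp]
  simp

theorem lamOp_zero : lamOp b 0 = 0 := by
  simp [lamOp]

/-- the left regular representation as a ring homomorphism -/
noncomputable def lam : Matrix (Fin n) (Fin n) (MonoidAlgebra ℚ G) →+* (H →L[ℂ] H) where
  toFun := lamOp b
  map_one' := lamOp_one b
  map_mul' := lamOp_mul b
  map_zero' := lamOp_zero b
  map_add' := lamOp_add b

theorem lam_apply (A : Matrix (Fin n) (Fin n) (MonoidAlgebra ℚ G)) : lam b A = lamOp b A := rfl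

/-- right translation -/
noncomputable def rightOp (k : G) : H →L[ℂ] H :=
  permOp b (Equiv.prodCongr (Equiv.refl (Fin n)) (Equiv.mulRight k))

theorem rightOp_apply (k : G) (j : Fin n) (g : G) : rightOp b k (b (j, g)) = b (j, g * k) := by
  unfold rightOp
  rw [permOp_apply]
  simp

theorem star_rightOp (k : G) : star (rightOp b k) = rightOp b k⁻¹ := by
  unfold rightOp
  rw [star_permOp]
  congr 1
  ext x <;> simp [Equiv.Perm.inv_def]

/-- the commutant of the right translations -/
noncomputable def comm : StarSubalgebra ℂ (H →L[ℂ] H) :=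
  StarSubalgebra.centralizer ℂ (Set.range (rightOp b))

theorem isClosed_comm : IsClosed (comm b : Set (H →L[ℂ] H)) := by
  unfold comm
  rw [StarSubalgebra.coe_centralizer]
  exact Set.isClosed_centralizer _

theorem mem_comm {S : H →L[ℂ] H} : S ∈ comm b ↔ ∀ k, rightOp b k * S = S * rightOp b k := by
  unfold comm
  rw [StarSubalgebra.mem_centralizer_iff]
  constructor
  · intro h k
    exact (h _ ⟨k, rfl⟩).1
  · rintro h _ ⟨k, rfl⟩
    exact ⟨h k, by rw [star_rightOp]; exact h _⟩

theorem lam_mem_comm (A : Matrix (Fin n) (Fin n) (MonoidAlgebra ℚ G)) : lam b A ∈ comm b := by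
  rw [mem_comm]
  intro k
  refine op_ext b ?_
  rintro ⟨j, g⟩
  rw [mul_apply_eq_comp, mul_apply_eq_comp, rightOp_apply, lam_apply,
    lamOp_apply, lamOp_apply]
  simp only [map_sum, map_smul, rightOp_apply, mul_assoc]

theorem inner_comm_shift {S : H →L[ℂ] H} (hS : S ∈ comm b) (i j : Fin n) (h g k : G) :
    inner ℂ (b (i, h * k)) (S (b (j, g * k))) = inner ℂ (b (i, h)) (S (b (j, g))) := by
  rw [← rightOp_apply, ← rightOp_apply, ← mul_apply_eq_comp S,
    ← (mem_comm b).mp hS k, mul_apply_eq_comp]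
  exact inner_permOp b _ _ _

/-- the trace -/
noncomputable def tr : (H →L[ℂ] H) →L[ℂ] ℂ :=
  ∑ i : Fin n, (innerSL ℂ (b (i, 1))).comp (ContinuousLinearMap.apply ℂ H (b (i, 1)))

omit [CompleteSpace H] in
theorem tr_apply (S : H →L[ℂ] H) : tr b S = ∑ i, inner ℂ (b (i, 1)) (S (b (i, 1))) := by
  simp [tr]

theorem tr_star (S : H →L[ℂ] H) : tr b (star S) = (starRingEnd ℂ) (tr b S) := by
  rw [tr_apply, tr_apply, map_sum]
  refine Finset.sum_congr rfl fun i _ => ?_
  rw [ContinuousLinearMap.star_eq_adjoint, ContinuousLinearMap.adjoint_inner_right,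
    inner_conj_symm]

theorem tr_mul_eq (S T : H →L[ℂ] H) :
    tr b (S * T) = ∑ i, ∑ j, ∑' g, inner ℂ (b (i, 1)) (S (b (j, g))) *
      inner ℂ (b (j, g)) (T (b (i, 1))) := by
  rw [tr_apply]
  refine Finset.sum_congr rfl fun i _ => ?_
  have h := b.hasSum_inner_mul_inner (ContinuousLinearMap.adjoint S (b (i, 1))) (T (b (i, 1)))
  simp only [ContinuousLinearMap.adjoint_inner_left] at h
  rw [mul_apply_eq_comp, ← h.tsum_eq, h.summable.tsum_prod, tsum_fintype]

theorem tr_comm {S T : H →L[ℂ] H} (hS : S ∈ comm b) (hT : T ∈ comm b) :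
    tr b (S * T) = tr b (T * S) := by
  rw [tr_mul_eq, tr_mul_eq, Finset.sum_comm]
  refine Finset.sum_congr rfl fun j _ => Finset.sum_congr rfl fun i _ => ?_
  rw [← (Equiv.inv G).tsum_eq]
  refine tsum_congr fun g => ?_
  have h1 := inner_comm_shift b hS i j 1 g⁻¹ g
  have h2 := inner_comm_shift b hT j i g⁻¹ 1 g
  simp only [one_mul, inv_mul_cancel] at h1 h2
  simp only [Equiv.inv_apply]
  rw [← h1, ← h2, mul_comm]

theorem tr_lam (A : Matrix (Fin n) (Fin n) (MonoidAlgebra ℚ G)) :
    tr b (lam b A) = ((∑ i, (A i i).coeff 1 : ℚ) : ℂ) := by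
  rw [tr_apply, Rat.cast_sum]
  refine Finset.sum_congr rfl fun i _ => ?_
  rw [lam_apply, inner_lamOp]
  simp

end Crest.Agent.R177.RegRepAux
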