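import Mathlib

/-!
# Operators attached to a Hilbert basis: permutation unitaries and coordinate projections
-/

set_option autoImplicit false

namespace Crest.Agent.R177.RegRepAux

open Submodule

variable {ι H : Type} [NormedAddCommGroup H] [InnerProductSpace ℂ H] [CompleteSpace H]
  (b : HilbertBasis ι ℂ H)

omit [CompleteSpace H] in
/-- two bounded operators that agree on the basis are equal -/
theorem op_ext {S T : H →L[ℂ] H} (h : ∀ x, S (b x) = T (b x)) : S = T := by
  have hd : Dense (span ℂ (Set.range b) : Set H) := by
    rw [Submodule.dense_iff_topologicalClosure_eq_top]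
    exact b.dense_span
  refine ContinuousLinearMap.ext_on hd ?_
  rintro _ ⟨x, rfl⟩
  exact h x

omit [CompleteSpace H] in
/-- a vector is determined by its coefficients -/
theorem vec_ext {u v : H} (h : ∀ x, inner ℂ (b x) u = inner ℂ (b x) v) : u = v := by
  apply b.repr.injective
  ext x
  rw [b.repr_apply_apply, b.repr_apply_apply, h]

omit [CompleteSpace H] in
theorem op_ext_inner {S T : H →L[ℂ] H}
    (h : ∀ x y, inner ℂ (b x) (S (b y)) = inner ℂ (b x) (T (b y))) : S = T :=
  op_ext b fun y => vec_ext b fun x => h x y

/-- the basis reindexed along a permutation -/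
noncomputable def permBasis (σ : Equiv.Perm ι) : HilbertBasis ι ℂ H :=
  HilbertBasis.mk (v := fun x => b (σ x)) (b.orthonormal.comp σ σ.injective) (by
    have : Set.range (fun x => b (σ x)) = Set.range b := σ.surjective.range_comp b
    rw [this, b.dense_span])

theorem permBasis_apply (σ : Equiv.Perm ι) (x : ι) : permBasis b σ x = b (σ x) := by
  unfold permBasis
  rw [HilbertBasis.coe_mk]

/-- the unitary permuting the basis -/
noncomputable def permU (σ : Equiv.Perm ι) : H ≃ₗᵢ[ℂ] H :=
  b.repr.trans (permBasis b σ).repr.symm

theorem permU_apply (σ : Equiv.Perm ι) (x : ι) : permU b σ (b x) = b (σ x) := by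
  classical
  unfold permU
  rw [LinearIsometryEquiv.trans_apply, b.repr_self, HilbertBasis.repr_symm_single,
    permBasis_apply]

/-- the unitary permuting the basis, as a bounded operator -/
noncomputable def permOp (σ : Equiv.Perm ι) : H →L[ℂ] H :=
  (permU b σ).toContinuousLinearEquiv.toContinuousLinearMap

theorem permOp_apply (σ : Equiv.Perm ι) (x : ι) : permOp b σ (b x) = b (σ x) :=
  permU_apply b σ x

theorem inner_permOp (σ : Equiv.Perm ι) (u v : H) :
    inner ℂ (permOp b σ u) (permOp b σ v) = inner ℂ u v :=
  (permU b σ).inner_map_map u v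

theorem star_permOp (σ : Equiv.Perm ι) : star (permOp b σ) = permOp b σ⁻¹ := by
  classical
  refine op_ext_inner b fun x y => ?_
  rw [ContinuousLinearMap.star_eq_adjoint, ContinuousLinearMap.adjoint_inner_right,
    permOp_apply, permOp_apply, orthonormal_iff_ite.mp b.orthonormal,
    orthonormal_iff_ite.mp b.orthonormal]
  congr 1
  apply propext
  constructor
  · rintro rfl; simp
  · rintro rfl; simp

/-- the projection onto the closed span of the basis vectors indexed by `s` -/
noncomputable def coordProj (s : Set ι) : H →L[ℂ] H :=
  (span ℂ (b '' s)).topologicalClosure.starProjection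

theorem coordProj_mem {s : Set ι} {x : ι} (hx : x ∈ s) : coordProj b s (b x) = b x := by
  unfold coordProj
  rw [Submodule.starProjection_eq_self_iff]
  exact Submodule.le_topologicalClosure _ (subset_span ⟨x, hx, rfl⟩)

theorem coordProj_notMem {s : Set ι} {x : ι} (hx : x ∉ s) : coordProj b s (b x) = 0 := by
  unfold coordProj
  rw [Submodule.starProjection_apply_eq_zero_iff, Submodule.orthogonal_closure,
    Submodule.mem_orthogonal]
  intro u hu
  induction hu using Submodule.span_induction with
  | mem u hu =>
    obtain ⟨y, hy, rfl⟩ := hu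
    have : y ≠ x := fun h => hx (h ▸ hy)
    exact b.orthonormal.2 this
  | zero => simp
  | add u v _ _ hu hv => rw [inner_add_left, hu, hv, add_zero]
  | smul c u _ hu => rw [inner_smul_left, hu, mul_zero]

end Crest.Agent.R177.RegRepAux
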